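import Vale.Agent.Lib.P329.CountP
import Vale.Agent.Lib.P329.Func
import Vale.Agent.Lib.P329.GroupC
import Vale.Agent.Lib.P329.Elem

open Computability

namespace Vale.Agent.Results.P329.AbelianByElementary

open Vale.Agent.Lib.P329

/-- Let `p` be a prime and let `G` be a finite group with an abelian normal subgroup `A` such that
`G / A` is an elementary abelian `p`-group (that is, `A` contains all `p`-th powers and all
commutators).  Then every language recognized by `G` has generalized star height at most one. -/
theorem result :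
    ∀ (p : ℕ), p.Prime →
    ∀ (G : Type) [Group G] [Finite G] (A : Subgroup G), A.Normal →
      (∀ a ∈ A, ∀ b ∈ A, a * b = b * a) →
      (∀ g : G, g ^ p ∈ A) →
      (∀ g h : G, g * h * g⁻¹ * h⁻¹ ∈ A) →
      ∀ (α : Type) [Fintype α] (φ : α → G) (S : Set G),
        ∃ E : GRE α, E.sh ≤ 1 ∧ E.lang = {w : List α | (w.map φ).prod ∈ S} := by
  intro p hp G _ _ A hA hab hpow hcom α _ φ S
  classical
  have : Fact p.Prime := ⟨hp⟩
  obtain ⟨k, t, ht⟩ := exists_hom_of_elementary p A hpow hcom
  have hmem : ∀ a : G, t a = 1 → a ∈ A := by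
    intro a ha
    rw [← ht]
    exact MonoidHom.mem_ker.2 ha
  have h1 : ∀ cls : α → ZMod p, GoodCount cls := fun cls => GoodCount_zmod cls
  exact main_H1C t (fun a b ha hb => hab a (hmem a ha) b (hmem b hb)) (Nat.card G)
    Nat.card_pos (fun a _ => pow_card_eq_one') φ
    (Rec1_grade p k h1 _) (GoodCount_pi p k h1 _) S

end Vale.Agent.Results.P329.AbelianByElementary
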