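import Vale.Agent.Lib.P329.CountP
import Vale.Agent.Lib.P329.Func
import Vale.Agent.Lib.P329.GroupC
import Vale.Agent.Lib.P329.Elem
import Vale.Agent.Lib.P329.Nil3G
import Vale.Agent.Lib.P329V.VCoset

open Computability

namespace Vale.Agent.Results.P329.Combined

open Vale.Agent.Lib.P329

/-- Four upper bounds for the generalized star height in one statement.
(1) Every language recognized by a finite nilpotent group of class at most three has generalized
star height at most one.
(2) Every language recognized by a finite group `G` with an abelian normal subgroup `A` such that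
`G / A` is an elementary abelian `p`-group (`p` any prime) has generalized star height at most one.
(3) If `A` is an abelian normal subgroup of a finite group `G` and `g` is an element of `G`, every
language recognized by `G` through a morphism sending each letter into `A` or into the coset `g A`
has generalized star height at most one.
(4) For every word `u` of length at most three, counting modulo `m` the occurrences of `u` as a
scattered subword gives languages of generalized star height at most one. -/
theorem result :
    (∀ (G : Type) [Group G] [Finite G] [Group.IsNilpotent G], Group.nilpotencyClass G ≤ 3 →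
      ∀ (α : Type) [Fintype α] (φ : α → G) (S : Set G),
        ∃ E : GRE α, E.sh ≤ 1 ∧ E.lang = {w : List α | (w.map φ).prod ∈ S}) ∧
    (∀ (p : ℕ), p.Prime →
      ∀ (G : Type) [Group G] [Finite G] (A : Subgroup G), A.Normal →
        (∀ a ∈ A, ∀ b ∈ A, a * b = b * a) →
        (∀ g : G, g ^ p ∈ A) →
        (∀ g h : G, g * h * g⁻¹ * h⁻¹ ∈ A) →
        ∀ (α : Type) [Fintype α] (φ : α → G) (S : Set G),
          ∃ E : GRE α, E.sh ≤ 1 ∧ E.lang = {w : List α | (w.map φ).prod ∈ S}) ∧
    (∀ (G : Type) [Group G] [Finite G] (A : Subgroup G), A.Normal →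
      (∀ a ∈ A, ∀ b ∈ A, a * b = b * a) →
      ∀ (g : G) (α : Type) [Fintype α] (φ : α → G),
        (∀ x : α, φ x ∈ A ∨ g⁻¹ * φ x ∈ A) →
        ∀ S : Set G,
          ∃ E : GRE α, E.sh ≤ 1 ∧ E.lang = {w : List α | (w.map φ).prod ∈ S}) ∧
    (∀ (α : Type) [Fintype α] [DecidableEq α] (u : List α), u.length ≤ 3 →
      ∀ m r : ℕ, 0 < m →
        ∃ E : GRE α, E.sh ≤ 1 ∧ E.lang = {w : List α | (List.count u w.sublists) % m = r}) := by
  refine ⟨?_, ?_, ?_, ?_⟩
  · intro G _ _ _ hc α _ φ S
    classical
    have h3 : (⊤ : Subgroup G).lowerCentralSeries 3 = ⊥ :=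
      Subgroup.lowerCentralSeries_eq_bot_iff_nilpotencyClass_le.2 hc
    exact (class3_all h3 _ φ le_rfl).mem S
  · intro p hp G _ _ A hA hab hpow hcom α _ φ S
    classical
    have : Fact p.Prime := ⟨hp⟩
    obtain ⟨k, t, ht⟩ := exists_hom_of_elementary p A hpow hcom
    have hmem : ∀ a : G, t a = 1 → a ∈ A := by
      intro a ha
      rw [← ht]
      exact MonoidHom.mem_ker.2 ha
    have h1 : ∀ cls : α → ZMod p, GoodCount cls := fun cls => GoodCount_zmod cls
    exact main_H1C t (fun a b ha hb => hab a (hmem a ha) b (hmem b hb)) (Nat.card G)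
      Nat.card_pos (fun a _ => pow_card_eq_one') φ
      (Rec1_grade p k h1 _) (GoodCount_pi p k h1 _) S
  · intro G _ _ A hA hab g α _ φ hφ S
    classical
    let t : G →* Multiplicative (Additive (G ⧸ A)) := QuotientGroup.mk' A
    have hker : ∀ a : G, t a = 1 → a ∈ A := by
      intro a ha
      exact (QuotientGroup.eq_one_iff a).1 ha
    have h0c : ∀ x : α, Multiplicative.toAdd (t (φ x)) = 0 ∨
        Multiplicative.toAdd (t (φ x)) = Multiplicative.toAdd (t g) := by
      intro x
      rcases hφ x with h | h
      · left
        exact (QuotientGroup.eq_one_iff (φ x)).2 h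
      · right
        exact (QuotientGroup.eq.2 h).symm
    exact main_H1C t (fun a b ha hb => hab a (hker a ha) b (hker b hb)) (Nat.card G)
      Nat.card_pos (fun a _ => pow_card_eq_one') φ
      (Rec1_grade_coset _ _ h0c) (GoodCount_coset _ _ h0c) S
  · intro α _ _ u hu m r hm
    have : NeZero m := ⟨hm.ne'⟩
    have h := (R_word m u hu).mem {v : ZMod m | v.val = r}
    have e : (LangOf fun w : List α =>
        ((pc (u.map fun a => ({a} : Set α)) w : ℕ) : ZMod m) ∈ {v : ZMod m | v.val = r})
        = ({w : List α | (List.count u w.sublists) % m = r} : Language α) := by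
      ext w
      show (((pc (u.map fun a => ({a} : Set α)) w : ℕ) : ZMod m)).val = r
        ↔ (List.count u w.sublists) % m = r
      rw [ZMod.val_natCast, count_sublists]
    rw [e] at h
    exact h

end Vale.Agent.Results.P329.Combined
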