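import Vale.Agent.Lib.P329V.VCoset
import Vale.Agent.Lib.P329.GroupC

open Computability

namespace Vale.Agent.Results.P329.CyclicUnitStep

open Vale.Agent.Lib.P329

/-- Let `G` be a finite group, `A` an abelian normal subgroup and `g` an element of `G`.  Then every
language recognized by `G` through a morphism sending each letter into `A` or into the coset `g A`
has generalized star height at most one. -/
theorem result :
    ∀ (G : Type) [Group G] [Finite G] (A : Subgroup G), A.Normal →
      (∀ a ∈ A, ∀ b ∈ A, a * b = b * a) →
      ∀ (g : G) (α : Type) [Fintype α] (φ : α → G),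
        (∀ x : α, φ x ∈ A ∨ g⁻¹ * φ x ∈ A) →
        ∀ S : Set G,
          ∃ E : GRE α, E.sh ≤ 1 ∧ E.lang = {w : List α | (w.map φ).prod ∈ S} := by
  intro G _ _ A hA hab g α _ φ hφ S
  classical
  let t : G →* Multiplicative (Additive (G ⧸ A)) := QuotientGroup.mk' A
  have hker : ∀ a : G, t a = 1 → a ∈ A := by
    intro a ha
    exact (QuotientGroup.eq_one_iff a).1 ha
  have h0c : ∀ x : α, Multiplicative.toAdd (t (φ x)) = 0 ∨
      Multiplicative.toAdd (t (φ x)) = Multiplicative.toAdd (t g) := by
    intro x
    rcases hφ x with h | h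
    · left
      exact (QuotientGroup.eq_one_iff (φ x)).2 h
    · right
      exact (QuotientGroup.eq.2 h).symm
  exact main_H1C t (fun a b ha hb => hab a (hker a ha) b (hker b hb)) (Nat.card G)
    Nat.card_pos (fun a _ => pow_card_eq_one') φ
    (Rec1_grade_coset _ _ h0c) (GoodCount_coset _ _ h0c) S

end Vale.Agent.Results.P329.CyclicUnitStep
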