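import Vale.Agent.Lib.P329.Nil3G

open Computability

namespace Vale.Agent.Results.P329.NilpotentClassThree

open Vale.Agent.Lib.P329

/-- (1) Every language recognized by a finite nilpotent group of class at most three has
generalized star height at most one.  (2) For every word `u` of length at most three, counting
modulo `m` the occurrences of `u` as a scattered subword gives languages of generalized star
height at most one. -/
theorem result :
    (∀ (G : Type) [Group G] [Finite G] [Group.IsNilpotent G], Group.nilpotencyClass G ≤ 3 →
      ∀ (α : Type) [Fintype α] (φ : α → G) (S : Set G),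
        ∃ E : GRE α, E.sh ≤ 1 ∧ E.lang = {w : List α | (w.map φ).prod ∈ S}) ∧
    (∀ (α : Type) [Fintype α] [DecidableEq α] (u : List α), u.length ≤ 3 →
      ∀ m r : ℕ, 0 < m →
        ∃ E : GRE α, E.sh ≤ 1 ∧ E.lang = {w : List α | (List.count u w.sublists) % m = r}) := by
  constructor
  · intro G _ _ _ hc α _ φ S
    classical
    have h3 : (⊤ : Subgroup G).lowerCentralSeries 3 = ⊥ :=
      Subgroup.lowerCentralSeries_eq_bot_iff_nilpotencyClass_le.2 hc
    exact (class3_all h3 _ φ le_rfl).mem S
  · intro α _ _ u hu m r hm
    have : NeZero m := ⟨hm.ne'⟩
    have h := (R_word m u hu).mem {v : ZMod m | v.val = r}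
    have e : (LangOf fun w : List α =>
        ((pc (u.map fun a => ({a} : Set α)) w : ℕ) : ZMod m) ∈ {v : ZMod m | v.val = r})
        = ({w : List α | (List.count u w.sublists) % m = r} : Language α) := by
      ext w
      show (((pc (u.map fun a => ({a} : Set α)) w : ℕ) : ZMod m)).val = r
        ↔ (List.count u w.sublists) % m = r
      rw [ZMod.val_natCast, count_sublists]
    rw [e] at h
    exact h

end Vale.Agent.Results.P329.NilpotentClassThree
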